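import Vale.Agent.P279.H765.Glue
import Vale.Agent.P279.H597.Fin
import Vale.Agent.P279.H630.QS

/-! # P279: the core statement (and Nagata's conjecture) from the degeneration statement `LAStmt` -/

namespace Vale.Agent.P279.H765

open MvPolynomial

noncomputable section

/-- natural exponents as integral exponents -/
def emb : ℕ × ℕ ↪ ℤ × ℤ :=
  ⟨fun t => ((t.1 : ℤ), (t.2 : ℤ)), fun a b h => by
    simp only [Prod.mk.injEq, Nat.cast_inj] at h
    exact Prod.ext h.1 h.2⟩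

@[simp] theorem emb_apply (t : ℕ × ℕ) : emb t = ((t.1 : ℤ), (t.2 : ℤ)) := rfl

/-- the support `Q_s` in the lattice -/
def QsZ (b m : ℕ) : Finset (ℤ × ℤ) := (NG.Qs b m).map emb

theorem mem_QsZ {b m : ℕ} {s : ℤ × ℤ} :
    s ∈ QsZ b m ↔ ∃ t ∈ NG.Qs b m, s = ((t.1 : ℤ), (t.2 : ℤ)) := by
  unfold QsZ
  rw [Finset.mem_map]
  constructor
  · rintro ⟨t, ht, rfl⟩
    exact ⟨t, ht, rfl⟩
  · rintro ⟨t, ht, rfl⟩
    exact ⟨t, ht, rfl⟩

theorem indep_of_indepAt {K : Type*} [Field K] {ι : Type*} {S : Finset (ℕ × ℕ)} {m : ι → ℕ}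
    {q : ι → Fin 2 → K} (h : NG.IndepAt K S m q) :
    L.Indep (S.map emb) (fun i => (q i 0, q i 1)) m := by
  intro c hc s hs
  obtain ⟨t, ht, rfl⟩ := Finset.mem_map.1 hs
  refine h.2 (fun t => c (emb t)) (fun i a b hab => ?_) t ht
  have h1 := hc i a b hab
  rw [Finset.sum_map] at h1
  rw [← h1]
  refine Finset.sum_congr rfl fun t _ => ?_
  simp only [emb_apply, Int.cast_natCast, zpow_natCast]
  ring

/-- **The core statement from the degeneration statement.** -/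
theorem core_of_LA (hLA : ∀ b m : ℕ, 1 ≤ m → m < b → LAStmt ℚ b (QsZ b m)) (r : ℕ) :
    H597.Core r := by
  intro b m hm hmb h9
  obtain ⟨q, hq⟩ := NG.good_Qs r b m hm hmb h9
  exact glue (by omega) (QsZ b m) _ (fun i => (q i 0, q i 1)) (fun i => ⟨hq.1 i 0, hq.1 i 1⟩)
    (indep_of_indepAt hq) (hLA b m hm hmb)

/-- **Nagata's conjecture from the degeneration statement.** -/
theorem nagata_of_LA (hLA : ∀ b m : ℕ, 1 ≤ m → m < b → LAStmt ℚ b (QsZ b m)) (r : ℕ)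
    (hr : 10 ≤ r) : VeryGenerally r fun p =>
    ∀ (d : ℕ) (F : MvPolynomial (Fin 3) ℂ), 1 ≤ d → F.IsHomogeneous d → F ≠ 0 →
      ∀ m : Fin r → ℕ, (∀ i, MultAtLeast F (p i) (m i)) →
        ∑ i, (m i : ℝ) < d * √(r : ℝ) :=
  H597.nagata_of_core r hr (core_of_LA hLA r)

end

end Vale.Agent.P279.H765
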