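import Vale.Agent.P279.H765.Mom
import Vale.Agent.P279.Bdl.B1

/-! # P279: from the degeneration statement (LA) to plane curves -/

namespace Vale.Agent.P279.H765

open MvPolynomial

noncomputable section

/-- Curves exist over every field of characteristic zero and all points as soon as they exist for
all rational points. -/
theorem eff_field {ι : Type*} [Fintype ι] {L : Type*} [Field L] [CharZero L] (b c : ℕ)
    (m : ι → ℕ) (h : Eff b c m) (q : ι → Fin 2 → L) :
    ∃ P : MvPolynomial (Fin 2) L, P ≠ 0 ∧ InV b c P ∧ ∀ i, MultGE (q i) (m i) P := by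
  classical
  rw [Gen.exists_iff]
  by_contra hcon
  push Not at hcon
  obtain ⟨L0, hL0⟩ := Gen.exists_left_inverse (Gen.mat b c m q) (by
    intro y hy
    by_contra h
    exact hcon y h hy)
  set U : ι → Fin 2 → MvPolynomial (ι × Fin 2) L := fun i k => X (i, k) with hU
  set Δ : MvPolynomial (ι × Fin 2) L := (L0.map (C : L →+* MvPolynomial (ι × Fin 2) L) *
    Gen.mat b c m U).det with hΔ
  have hev : ∀ v : ι × Fin 2 → L, eval v Δ = (L0 * Gen.mat b c m (fun i k => v (i, k))).det := by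
    intro v
    rw [hΔ, RingHom.map_det, RingHom.mapMatrix_apply, Matrix.map_mul, Gen.mat_map]
    have e1 : (L0.map (C : L →+* MvPolynomial (ι × Fin 2) L)).map (eval v) = L0 := by
      ext i j
      simp only [Matrix.map_apply, eval_C]
    have e2 : (fun i k => eval v (U i k)) = fun i k => v (i, k) := by
      funext i k
      simp [hU]
    rw [e1, e2]
  have h2 : Δ ≠ 0 := by
    intro h0
    have h1 := hev (fun p => q p.1 p.2)
    rw [h0, map_zero] at h1
    have e3 : (fun (i : ι) (k : Fin 2) => (fun p : ι × Fin 2 => q p.1 p.2) (i, k)) = q := rfl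
    rw [e3, hL0, Matrix.det_one] at h1
    exact zero_ne_one h1
  obtain ⟨z, hz⟩ : ∃ z : ι × Fin 2 → ℚ, eval (fun p => (algebraMap ℚ L) (z p)) Δ ≠ 0 := by
    by_contra hno
    push Not at hno
    apply h2
    refine MvPolynomial.funext_set (fun _ => Set.range (algebraMap ℚ L)) (fun _ => ?_) ?_
    · exact Set.infinite_range_of_injective (algebraMap ℚ L).injective
    · intro x hx
      have hx' : ∀ p, ∃ y : ℚ, algebraMap ℚ L y = x p := fun p => hx p (Set.mem_univ p)
      choose y hy using hx'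
      have : x = fun p => algebraMap ℚ L (y p) := funext fun p => (hy p).symm
      rw [this, hno y, map_zero]
  obtain ⟨x, hx, hMx⟩ := (Gen.exists_iff b c m (fun i k => z (i, k))).mp (h (fun i k => z (i, k)))
  apply hz
  rw [hev, ← Matrix.exists_mulVec_eq_zero_iff]
  refine ⟨fun j => algebraMap ℚ L (x j), ?_, ?_⟩
  · intro h0
    apply hx
    funext j
    have := congrFun h0 j
    simpa using this
  · have h5 : (Gen.mat b c m (fun i k => (algebraMap ℚ L) (z (i, k)))).mulVec
        (fun j => algebraMap ℚ L (x j)) = 0 := by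
      rw [← Gen.mat_map (algebraMap ℚ L) b c m (fun i k => z (i, k))]
      funext i
      have := congrFun hMx i
      have h6 := congrArg (algebraMap ℚ L) this
      simpa [Matrix.mulVec, dotProduct, map_sum] using h6
    rw [← Matrix.mulVec_mulVec, h5, Matrix.mulVec_zero]

/-- **STATEMENT LA.** The degeneration statement. -/
def LAStmt (k : Type*) [Field k] (b : ℕ) (S : Finset (ℤ × ℤ)) : Prop :=
  ∃ (W : R2 k) (p : Fin 3 → HahnSeries ℤ (R2 k)), W ≠ 0 ∧
    ∀ P : MvPolynomial (Fin 3) (HahnSeries ℤ k), P.IsHomogeneous (3 * b) → P ≠ 0 →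
      ∃ (n : ℤ) (f : R2 k), f ≠ 0 ∧ (∀ s, s ∉ S → f.coeff s = 0) ∧
        (eval₂ (io k) p P).coeff n = W * f

/-! ### Avoiding the zeros of finitely many Laurent polynomials -/

variable {k : Type*} [Field k]

/-- the monomial function -/
def chr (s : ℤ × ℤ) : (kˣ × kˣ) →* k where
  toFun p := ((p.1 ^ s.1 * p.2 ^ s.2 : kˣ) : k)
  map_one' := by simp
  map_mul' p q := by
    simp only [Prod.fst_mul, Prod.snd_mul, mul_zpow]
    push_cast
    ring

theorem chr_injective [CharZero k] : Function.Injective (chr : ℤ × ℤ → ((kˣ × kˣ) →* k)) := by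
  intro s s' h
  have h2 : (2 : k) ≠ 0 := two_ne_zero
  set u : kˣ := Units.mk0 2 h2 with hu
  have e1 := congrArg (fun f : (kˣ × kˣ) →* k => f (u, 1)) h
  have e2 := congrArg (fun f : (kˣ × kˣ) →* k => f (1, u)) h
  simp only [chr, MonoidHom.coe_mk, OneHom.coe_mk, one_zpow, mul_one, one_mul] at e1 e2
  have key : ∀ a c : ℤ, ((u ^ a : kˣ) : k) = ((u ^ c : kˣ) : k) → a = c := by
    intro a c hac
    have h3 : (2 : k) ^ a = (2 : k) ^ c := by
      simpa [hu] using hac
    have h4 : ((2 : ℚ) ^ a : ℚ) = (2 : ℚ) ^ c := by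
      have : ((((2 : ℚ) ^ a : ℚ)) : k) = (((2 : ℚ) ^ c : ℚ) : k) := by
        push_cast
        exact h3
      exact_mod_cast this
    exact zpow_right_injective₀ (by norm_num) (by norm_num) h4
  exact Prod.ext (key _ _ e1) (key _ _ e2)

theorem M_units (p : kˣ × kˣ) (f : R2 k) :
    M ((p.1 : k), (p.2 : k)) 0 0 f = f.coeff.sum fun s c => c * chr s p := by
  rw [M]
  refine Finsupp.sum_congr fun s _ => ?_
  simp [wt, chr]

/-- a nonzero Laurent polynomial does not vanish at some torus point -/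
theorem exists_ne [CharZero k] {f : R2 k} (hf : f ≠ 0) :
    ∃ p : kˣ × kˣ, M ((p.1 : k), (p.2 : k)) 0 0 f ≠ 0 := by
  by_contra hno
  push Not at hno
  apply hf
  have hli := (linearIndependent_monoidHom (kˣ × kˣ) k).comp
    (chr : ℤ × ℤ → ((kˣ × kˣ) →* k)) chr_injective
  rw [linearIndependent_iff] at hli
  have := hli f.coeff (by
    funext p
    have h1 := hno p
    rw [M_units] at h1
    rw [Finsupp.linearCombination_apply, Finsupp.sum, Finset.sum_apply]
    simpa [Finsupp.sum] using h1)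
  have h2 : f = AddMonoidAlgebra.ofCoeff 0 := by rw [← this]
  rw [h2]
  rfl

/-- rescaling of the variables -/
def tw (q : k × k) (f : R2 k) : R2 k :=
  AddMonoidAlgebra.ofCoeff (f.coeff.sum fun s c => Finsupp.single s (c * (q.1 ^ s.1 * q.2 ^ s.2)))

theorem tw_coeff (q : k × k) (f : R2 k) (s : ℤ × ℤ) :
    (tw q f).coeff s = f.coeff s * (q.1 ^ s.1 * q.2 ^ s.2) := by
  classical
  simp only [tw, Finsupp.sum, Finsupp.finsetSum_apply, Finsupp.single_apply]
  rw [Finset.sum_ite_eq']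
  split_ifs with h
  · rfl
  · rw [Finsupp.notMem_support_iff.1 h, zero_mul]

theorem tw_ne_zero {q : k × k} (h1 : q.1 ≠ 0) (h2 : q.2 ≠ 0) {f : R2 k} (hf : f ≠ 0) :
    tw q f ≠ 0 := by
  intro h
  apply hf
  have : f.coeff = 0 := by
    ext s
    have h3 := tw_coeff q f s
    rw [h] at h3
    simp only [AddMonoidAlgebra.coeff_zero, Finsupp.coe_zero, Pi.zero_apply] at h3
    rcases mul_eq_zero.1 h3.symm with h4 | h4
    · simpa using h4
    · exact absurd h4 (mul_ne_zero (zpow_ne_zero _ h1) (zpow_ne_zero _ h2))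
  have h2 : f = AddMonoidAlgebra.ofCoeff 0 := by rw [← this]
  rw [h2]
  rfl

theorem M_tw (q p : k × k) (f : R2 k) :
    M p 0 0 (tw q f) = M (p.1 * q.1, p.2 * q.2) 0 0 f := by
  have hsupp : (tw q f).coeff.support ⊆ f.coeff.support := by
    intro s hs
    rw [Finsupp.mem_support_iff] at hs ⊢
    intro h
    apply hs
    rw [tw_coeff, h, zero_mul]
  rw [M, M, Finsupp.sum, Finsupp.sum, Finset.sum_subset hsupp]
  · refine Finset.sum_congr rfl fun s _ => ?_
    rw [tw_coeff]
    simp only [wt, pow_zero, one_mul, mul_zpow]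
    ring
  · intro s _ hs
    rw [Finsupp.notMem_support_iff.1 hs]
    simp

theorem exists_ne_all [CharZero k] {ι : Type*} [Fintype ι] (q : ι → k × k)
    (hq : ∀ i, (q i).1 ≠ 0 ∧ (q i).2 ≠ 0) {f : R2 k} (hf : f ≠ 0) :
    ∃ p : kˣ × kˣ, ∀ i, M (p.1 * (q i).1, p.2 * (q i).2) 0 0 f ≠ 0 := by
  classical
  have h1 : (∏ i, tw (q i) f) ≠ 0 :=
    Finset.prod_ne_zero_iff.2 fun i _ => tw_ne_zero (hq i).1 (hq i).2 hf
  obtain ⟨p, hp⟩ := exists_ne h1
  refine ⟨p, fun i h => hp ?_⟩
  have h2 := ev_apply ((p.1 : k), (p.2 : k)) p.1.ne_zero p.2.ne_zero (∏ i, tw (q i) f)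
  rw [← h2, map_prod]
  refine Finset.prod_eq_zero (Finset.mem_univ i) ?_
  rw [ev_apply, M_tw]
  exact h

theorem indep_scale {ι : Type*} {S : Finset (ℤ × ℤ)} {q : ι → k × k} {m : ι → ℕ}
    (h : L.Indep S q m) (p : kˣ × kˣ) :
    L.Indep S (fun i => ((p.1 : k) * (q i).1, (p.2 : k) * (q i).2)) m := by
  intro c hc s hs
  have h1 := h (fun s => c s * (((p.1 : k) ^ s.1) * ((p.2 : k) ^ s.2))) (fun i a b hab => by
    rw [← hc i a b hab]
    refine Finset.sum_congr rfl fun s _ => ?_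
    simp only [mul_zpow]
    ring) s hs
  rcases mul_eq_zero.1 h1 with h2 | h2
  · exact h2
  · exact absurd h2 (mul_ne_zero (zpow_ne_zero _ p.1.ne_zero) (zpow_ne_zero _ p.2.ne_zero))

/-! ### Homogenisation -/

/-- exponent of the homogenised monomial -/
def hexp (D : ℕ) (δ : Fin 2 →₀ ℕ) : Fin 3 →₀ ℕ :=
  Finsupp.single 0 (δ 0) + Finsupp.single 1 (δ 1) + Finsupp.single 2 (D - δ 0 - δ 1)

theorem hexp_zero (D : ℕ) (δ : Fin 2 →₀ ℕ) : hexp D δ 0 = δ 0 := by
  simp [hexp]

theorem hexp_one (D : ℕ) (δ : Fin 2 →₀ ℕ) : hexp D δ 1 = δ 1 := by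
  simp [hexp]

theorem hexp_two (D : ℕ) (δ : Fin 2 →₀ ℕ) : hexp D δ 2 = D - δ 0 - δ 1 := by
  simp [hexp]

theorem hexp_injective (D : ℕ) : Function.Injective (hexp D) := by
  intro δ ε h
  have h0 := congrArg (fun x : Fin 3 →₀ ℕ => x 0) h
  have h1 := congrArg (fun x : Fin 3 →₀ ℕ => x 1) h
  simp only [hexp_zero, hexp_one] at h0 h1
  ext i
  fin_cases i
  · exact h0
  · exact h1

/-- homogenisation in degree `D` -/
def hmg {K : Type*} [CommRing K] (D : ℕ) (P : MvPolynomial (Fin 2) K) : MvPolynomial (Fin 3) K :=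
  ∑ δ ∈ P.support, monomial (hexp D δ) (coeff δ P)

theorem hmg_homogeneous {K : Type*} [CommRing K] {D : ℕ} {P : MvPolynomial (Fin 2) K}
    (hP : InV D 0 P) : (hmg D P).IsHomogeneous D := by
  refine IsHomogeneous.sum _ _ _ fun δ hδ => ?_
  refine isHomogeneous_monomial _ ?_
  have := hP δ hδ
  rw [Finsupp.degree_eq_sum, Fin.sum_univ_three, hexp_zero, hexp_one, hexp_two]
  omega

theorem hmg_ne_zero {K : Type*} [CommRing K] {D : ℕ} {P : MvPolynomial (Fin 2) K}
    (hP : P ≠ 0) : hmg D P ≠ 0 := by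
  classical
  obtain ⟨δ, hδ⟩ := (MvPolynomial.support_nonempty).2 hP
  intro h
  have h1 := congrArg (coeff (hexp D δ)) h
  rw [hmg, coeff_sum, Finset.sum_eq_single δ] at h1
  · rw [coeff_monomial, if_pos rfl, coeff_zero] at h1
    exact (mem_support_iff.1 hδ) h1
  · intro ε _ hε
    rw [coeff_monomial, if_neg]
    exact fun h2 => hε (hexp_injective D h2)
  · intro h2
    exact absurd hδ h2

/-- the value of the homogenised polynomial -/
def hval {K T : Type*} [CommRing K] [CommRing T] (g : K →+* T) (D : ℕ) (a b c : T)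
    (P : MvPolynomial (Fin 2) K) : T :=
  ∑ δ ∈ P.support, g (coeff δ P) * (a ^ δ 0 * b ^ δ 1 * c ^ (D - δ 0 - δ 1))

theorem eval₂_hmg {K T : Type*} [CommRing K] [CommRing T] (g : K →+* T) (D : ℕ) (p : Fin 3 → T)
    (P : MvPolynomial (Fin 2) K) : eval₂ g p (hmg D P) = hval g D (p 0) (p 1) (p 2) P := by
  rw [hmg, eval₂_sum, hval]
  refine Finset.sum_congr rfl fun δ _ => ?_
  rw [eval₂_monomial, Finsupp.prod_fintype _ _ (fun _ => pow_zero _), Fin.prod_univ_three,
    hexp_zero, hexp_one, hexp_two]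

theorem hval_frac {K T F : Type*} [CommRing K] [CommRing T] [Field F] (g : K →+* T)
    (φ : T →+* F) (D : ℕ) (a b c : T) (hc : φ c ≠ 0) {P : MvPolynomial (Fin 2) K}
    (hP : InV D 0 P) :
    φ (hval g D a b c P) = φ c ^ D * eval₂ (φ.comp g) ![φ a / φ c, φ b / φ c] P := by
  rw [hval, map_sum, eval₂_eq', Finset.mul_sum]
  refine Finset.sum_congr rfl fun δ hδ => ?_
  have h1 := hP δ hδ
  rw [Fin.prod_univ_two]
  simp only [map_mul, map_pow, RingHom.comp_apply, Matrix.cons_val_zero, Matrix.cons_val_one,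
    Matrix.cons_val_fin_one]
  have h2 : φ c ^ D = φ c ^ (D - δ 0 - δ 1) * (φ c ^ δ 0 * φ c ^ δ 1) := by
    rw [← pow_add, ← pow_add]
    congr 1
    omega
  rw [h2, div_pow, div_pow]
  field_simp

theorem eval₂_shift {K F : Type*} [CommRing K] [CommRing F] (g : K →+* F) (v : Fin 2 → F)
    (q : Fin 2 → K) (P : MvPolynomial (Fin 2) K) :
    eval₂ g v (shift q P) = eval₂ g (fun j => v j + g (q j)) P := by
  have h : (eval₂Hom g v).comp (shift q : MvPolynomial (Fin 2) K →ₐ[K]
      MvPolynomial (Fin 2) K).toRingHom = eval₂Hom g (fun j => v j + g (q j)) := by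
    apply MvPolynomial.ringHom_ext
    · intro r
      simp [shift]
    · intro i
      simp [shift]
  exact congrArg (fun f : MvPolynomial (Fin 2) K →+* F => f P) h

theorem hval_shift {K T : Type*} [CommRing K] [CommRing T] [IsDomain T] (g : K →+* T) (D : ℕ)
    (a b c : T) (hc : c ≠ 0) (q : Fin 2 → K) {P : MvPolynomial (Fin 2) K} (hP : InV D 0 P) :
    hval g D a b c P = hval g D (a - g (q 0) * c) (b - g (q 1) * c) c (shift q P) := by
  set φ := algebraMap T (FractionRing T) with hφ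
  have hinj : Function.Injective φ := IsFractionRing.injective _ _
  have hφc : φ c ≠ 0 := by
    intro h
    exact hc (hinj (by rw [h, map_zero]))
  apply hinj
  rw [hval_frac g φ D a b c hφc hP, hval_frac g φ D _ _ c hφc (InV.shift hP q), eval₂_shift]
  congr 2
  funext j
  fin_cases j
  · simp only [Fin.zero_eta, Matrix.cons_val_zero, map_sub, map_mul, RingHom.comp_apply]
    field_simp
    ring
  · simp only [Fin.mk_one, Matrix.cons_val_one, Matrix.cons_val_fin_one, map_sub, map_mul,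
      RingHom.comp_apply]
    field_simp
    ring

theorem hval_VS {pt : k × k} (h1 : pt.1 ≠ 0) (h2 : pt.2 ≠ 0) (D m : ℕ)
    (a b c : HahnSeries ℤ (R2 k)) (hc : c ≠ 0) (q : Fin 2 → HahnSeries ℤ k)
    {P : MvPolynomial (Fin 2) (HahnSeries ℤ k)} (hP : InV D 0 P) (hm : MultGE q m P)
    (ha : VS pt 1 (a - io k (q 0) * c)) (hb : VS pt 1 (b - io k (q 1) * c)) :
    VS pt m (hval (io k) D a b c P) := by
  rw [hval_shift (io k) D a b c hc q hP, hval]
  refine VS.sum _ _ fun δ hδ => ?_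
  have h3 : m ≤ δ 0 + δ 1 := by
    by_contra h
    exact (mem_support_iff.1 hδ) (hm δ (by omega))
  refine VS.mul_left h1 h2 _ (VS.mul_right h1 h2 ?_ _)
  exact ((VS.pow h1 h2 ha (δ 0)).mul h1 h2 (VS.pow h1 h2 hb (δ 1))).mono h3

/-- **GLUE.** -/
theorem glue [CharZero k] {ι : Type*} [Fintype ι] {b : ℕ} (hb : 1 ≤ b) (S : Finset (ℤ × ℤ))
    (m : ι → ℕ) (q : ι → k × k) (hq : ∀ i, (q i).1 ≠ 0 ∧ (q i).2 ≠ 0) (hS : L.Indep S q m)
    (hLA : LAStmt k b S) : ¬ Eff (3 * b) 0 m := by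
  classical
  intro hE
  obtain ⟨W, p, hW, hp⟩ := hLA
  -- the last coordinate is not zero
  have hp2 : p 2 ≠ 0 := by
    intro h0
    have hhom : (X 2 ^ (3 * b) : MvPolynomial (Fin 3) (HahnSeries ℤ k)).IsHomogeneous (3 * b) := by
      have := (isHomogeneous_X (HahnSeries ℤ k) (2 : Fin 3)).pow (3 * b)
      rwa [one_mul] at this
    obtain ⟨n, f, hf, -, hn⟩ := hp (X 2 ^ (3 * b)) hhom (pow_ne_zero _ (X_ne_zero 2))
    rw [eval₂_pow, eval₂_X, h0, zero_pow (by omega), HahnSeries.coeff_zero] at hn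
    exact (mul_ne_zero hW hf) hn.symm
  obtain ⟨n2, hn2⟩ : ∃ n2, (p 2).coeff n2 ≠ 0 := by
    by_contra hno
    push Not at hno
    exact hp2 (by ext n; simp [hno n])
  -- torus points off the zeros
  obtain ⟨sc, hsc⟩ := exists_ne_all q hq (mul_ne_zero hW hn2)
  set q' : ι → k × k := fun i => ((sc.1 : k) * (q i).1, (sc.2 : k) * (q i).2) with hq'
  have h1 : ∀ i, (q' i).1 ≠ 0 := fun i => mul_ne_zero sc.1.ne_zero (hq i).1
  have h2 : ∀ i, (q' i).2 ≠ 0 := fun i => mul_ne_zero sc.2.ne_zero (hq i).2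
  have hS' : L.Indep S q' m := indep_scale hS sc
  have hWW : ∀ i, M (q' i) 0 0 W ≠ 0 ∧ M (q' i) 0 0 ((p 2).coeff n2) ≠ 0 := by
    intro i
    have h3 := hsc i
    rw [← ev_apply (q' i) (h1 i) (h2 i), map_mul] at h3
    exact ⟨left_ne_zero_of_mul h3, right_ne_zero_of_mul h3⟩
  -- the points over the field of series
  set π : ι → Fin 3 → HahnSeries ℤ k := fun i a => mapRH (ev (q' i) (h1 i) (h2 i)) (p a) with hπ
  have hπ2 : ∀ i, π i 2 ≠ 0 := by
    intro i h0
    apply (hWW i).2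
    have := congrArg (fun y => HahnSeries.coeff y n2) h0
    simpa [hπ, ev_apply] using this
  have : CharZero (HahnSeries ℤ k) :=
    charZero_of_injective_algebraMap (algebraMap k (HahnSeries ℤ k)).injective
  obtain ⟨P, hP0, hPV, hPm⟩ := eff_field (3 * b) 0 m hE
    (fun i => ![π i 0 / π i 2, π i 1 / π i 2])
  obtain ⟨n, f, hf, hfS, hn⟩ := hp (hmg (3 * b) P) (hmg_homogeneous hPV) (hmg_ne_zero hP0)
  apply hf
  have hV : ∀ i, V (q' i) (m i) f := by
    intro i
    apply V.of_mul (h1 i) (h2 i) (hWW i).1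
    rw [← hn, eval₂_hmg]
    have key : ∀ a : Fin 3, VS (q' i) 1 (p a - io k (π i a / π i 2) * p 2) := by
      intro a
      apply VS_sub (q' i) (h1 i) (h2 i)
      rw [map_sub, map_mul, evS_io]
      have : mapRH (ev (q' i) (h1 i) (h2 i)) (p 2) = π i 2 := rfl
      rw [this, div_mul_cancel₀ _ (hπ2 i)]
      exact sub_self _
    exact hval_VS (h1 i) (h2 i) (3 * b) (m i) (p 0) (p 1) (p 2) hp2 _ hPV (hPm i) (key 0) (key 1) n
  have hc := hS' (fun s => f.coeff s) fun i => van_of_V hfS (hV i)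
  have h0 : f.coeff = 0 := by
    ext s
    by_cases hs : s ∈ S
    · exact hc s hs
    · exact hfS s hs
  have h3 : f = AddMonoidAlgebra.ofCoeff 0 := by rw [← h0]
  rw [h3]
  rfl

end

end Vale.Agent.P279.H765
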