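import Vale.Agent.P279.H765.Core

/-! # P279: the glue lemma over an abstract ring of series; the two-level version -/

namespace Vale.Agent.P279.H765

open MvPolynomial

noncomputable section

variable {k : Type*} [Field k]

/-- A ring `T` of series over the Laurent polynomials with its field of constants `F`. -/
structure GlueData (k : Type*) [Field k] (F T : Type*) [Field F] [CommRing T] where
  /-- constants -/
  cst : F →+* T
  /-- evaluation at a torus point -/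
  evT : ∀ p : k × k, p.1 ≠ 0 → p.2 ≠ 0 → T →+* F
  evT_cst : ∀ p h1 h2 x, evT p h1 h2 (cst x) = x
  /-- vanishing order at a torus point -/
  VT : k × k → ℕ → T → Prop
  VT_zero_order : ∀ p x, VT p 0 x
  VT_mono : ∀ p m m' x, m' ≤ m → VT p m x → VT p m' x
  VT_zero : ∀ p m, VT p m 0
  VT_add : ∀ p m x y, VT p m x → VT p m y → VT p m (x + y)
  VT_mul : ∀ p, p.1 ≠ 0 → p.2 ≠ 0 → ∀ m m' x y, VT p m x → VT p m' y → VT p (m + m') (x * y)
  VT_one : ∀ p h1 h2 x, evT p h1 h2 x = 0 → VT p 1 x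
  /-- coefficients -/
  Λ : Set (T → R2 k)
  Λ_sep : ∀ x, x ≠ 0 → ∃ l ∈ Λ, l x ≠ 0
  Λ_V : ∀ l ∈ Λ, ∀ p m x, VT p m x → V p m (l x)

set_option linter.unusedSectionVars false

variable {F T : Type*} [Field F] [CommRing T] [IsDomain T] (G : GlueData k F T)

namespace GlueData

theorem VT_sum (p : k × k) (m : ℕ) {ι : Type*} (s : Finset ι) (f : ι → T)
    (h : ∀ i ∈ s, G.VT p m (f i)) : G.VT p m (∑ i ∈ s, f i) := by
  classical
  induction s using Finset.induction_on with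
  | empty => simpa using G.VT_zero p m
  | insert a s ha ih =>
    rw [Finset.sum_insert ha]
    exact G.VT_add _ _ _ _ (h a (Finset.mem_insert_self _ _))
      (ih fun i hi => h i (Finset.mem_insert_of_mem hi))

theorem VT_pow {p : k × k} (h1 : p.1 ≠ 0) (h2 : p.2 ≠ 0) {x : T}
    (hx : G.VT p 1 x) (n : ℕ) : G.VT p n (x ^ n) := by
  induction n with
  | zero => exact G.VT_zero_order p _
  | succ n ih =>
    rw [pow_succ]
    exact G.VT_mul p h1 h2 _ _ _ _ ih hx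

theorem hval_VT {pt : k × k} (h1 : pt.1 ≠ 0) (h2 : pt.2 ≠ 0) (D m : ℕ)
    (a b c : T) (hc : c ≠ 0) (q : Fin 2 → F)
    {P : MvPolynomial (Fin 2) F} (hP : InV D 0 P) (hm : MultGE q m P)
    (ha : G.VT pt 1 (a - G.cst (q 0) * c)) (hb : G.VT pt 1 (b - G.cst (q 1) * c)) :
    G.VT pt m (hval G.cst D a b c P) := by
  rw [hval_shift G.cst D a b c hc q hP, hval]
  refine G.VT_sum _ _ _ _ fun δ hδ => ?_
  have h3 : m ≤ δ 0 + δ 1 := by
    by_contra h
    exact (mem_support_iff.1 hδ) (hm δ (by omega))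
  have h4 := G.VT_mono _ _ _ _ h3
    (G.VT_mul pt h1 h2 _ _ _ _ (G.VT_pow h1 h2 ha (δ 0)) (G.VT_pow h1 h2 hb (δ 1)))
  have h5 := G.VT_mul pt h1 h2 _ _ _ _ h4 (G.VT_zero_order pt (c ^ (D - δ 0 - δ 1)))
  have h6 := G.VT_mul pt h1 h2 _ _ _ _ (G.VT_zero_order pt (G.cst (coeff δ (shift q P)))) h5
  simpa using h6

/-- The degeneration statement over an abstract ring of series. -/
def LA (b : ℕ) (S : Finset (ℤ × ℤ)) : Prop :=
  ∃ (W : R2 k) (p : Fin 3 → T), W ≠ 0 ∧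
    ∀ P : MvPolynomial (Fin 3) F, P.IsHomogeneous (3 * b) → P ≠ 0 →
      ∃ l ∈ G.Λ, ∃ f : R2 k, f ≠ 0 ∧ (∀ s, s ∉ S → f.coeff s = 0) ∧
        l (eval₂ G.cst p P) = W * f

/-- **GLUE**, abstract form. -/
theorem glue [CharZero k] [CharZero F] {ι : Type*} [Fintype ι] {b : ℕ} (hb : 1 ≤ b)
    (S : Finset (ℤ × ℤ))
    (m : ι → ℕ) (q : ι → k × k) (hq : ∀ i, (q i).1 ≠ 0 ∧ (q i).2 ≠ 0) (hS : L.Indep S q m)
    (hLA : G.LA b S) : ¬ Eff (3 * b) 0 m := by
  classical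
  intro hE
  obtain ⟨W, p, hW, hp⟩ := hLA
  -- coefficients vanish at zero
  have hl0 : ∀ l ∈ G.Λ, ∀ p : k × k, p.1 ≠ 0 → p.2 ≠ 0 → M p 0 0 (l 0) = 0 := by
    intro l hl p h1 h2
    exact G.Λ_V l hl p 1 0 (G.VT_zero p 1) 0 0 (by norm_num)
  -- the last coordinate is not zero
  have hl00 : ∀ l ∈ G.Λ, l 0 = 0 := by
    intro l hl
    by_contra hne
    obtain ⟨pt, hpt⟩ := exists_ne hne
    exact hpt (hl0 l hl _ pt.1.ne_zero pt.2.ne_zero)
  have hp2 : p 2 ≠ 0 := by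
    intro h0
    have hhom : (X 2 ^ (3 * b) : MvPolynomial (Fin 3) F).IsHomogeneous (3 * b) := by
      have := (isHomogeneous_X F (2 : Fin 3)).pow (3 * b)
      rwa [one_mul] at this
    obtain ⟨l, hl, f, hf, -, hn⟩ := hp (X 2 ^ (3 * b)) hhom (pow_ne_zero _ (X_ne_zero 2))
    rw [eval₂_pow, eval₂_X, h0, zero_pow (by omega), hl00 l hl] at hn
    exact (mul_ne_zero hW hf) hn.symm
  obtain ⟨l2, hl2, hn2⟩ := G.Λ_sep _ hp2
  -- torus points off the zeros
  obtain ⟨sc, hsc⟩ := exists_ne_all q hq (mul_ne_zero hW hn2)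
  set q' : ι → k × k := fun i => ((sc.1 : k) * (q i).1, (sc.2 : k) * (q i).2) with hq'
  have h1 : ∀ i, (q' i).1 ≠ 0 := fun i => mul_ne_zero sc.1.ne_zero (hq i).1
  have h2 : ∀ i, (q' i).2 ≠ 0 := fun i => mul_ne_zero sc.2.ne_zero (hq i).2
  have hS' : L.Indep S q' m := indep_scale hS sc
  have hWW : ∀ i, M (q' i) 0 0 W ≠ 0 ∧ M (q' i) 0 0 (l2 (p 2)) ≠ 0 := by
    intro i
    have h3 := hsc i
    rw [← ev_apply (q' i) (h1 i) (h2 i), map_mul] at h3
    exact ⟨left_ne_zero_of_mul h3, right_ne_zero_of_mul h3⟩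
  -- the points over the field of series
  set π : ι → Fin 3 → F := fun i a => G.evT (q' i) (h1 i) (h2 i) (p a) with hπ
  have hπ2 : ∀ i, π i 2 ≠ 0 := by
    intro i h0
    exact (hWW i).2 (G.Λ_V l2 hl2 _ 1 _ (G.VT_one _ (h1 i) (h2 i) _ h0) 0 0 (by norm_num))
  obtain ⟨P, hP0, hPV, hPm⟩ := eff_field (3 * b) 0 m hE
    (fun i => ![π i 0 / π i 2, π i 1 / π i 2])
  obtain ⟨l, hl, f, hf, hfS, hn⟩ := hp (hmg (3 * b) P) (hmg_homogeneous hPV) (hmg_ne_zero hP0)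
  apply hf
  have hV : ∀ i, V (q' i) (m i) f := by
    intro i
    apply V.of_mul (h1 i) (h2 i) (hWW i).1
    rw [← hn, eval₂_hmg]
    have key : ∀ a : Fin 3, G.VT (q' i) 1 (p a - G.cst (π i a / π i 2) * p 2) := by
      intro a
      apply G.VT_one (q' i) (h1 i) (h2 i)
      rw [map_sub, map_mul, G.evT_cst]
      have : G.evT (q' i) (h1 i) (h2 i) (p 2) = π i 2 := rfl
      rw [this, div_mul_cancel₀ _ (hπ2 i)]
      exact sub_self _
    exact G.Λ_V l hl _ _ _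
      (G.hval_VT (h1 i) (h2 i) (3 * b) (m i) (p 0) (p 1) (p 2) hp2 _ hPV (hPm i) (key 0) (key 1))
  have hc := hS' (fun s => f.coeff s) fun i => van_of_V hfS (hV i)
  have h0 : f.coeff = 0 := by
    ext s
    by_cases hs : s ∈ S
    · exact hc s hs
    · exact hfS s hs
  have h3 : f = AddMonoidAlgebra.ofCoeff 0 := by rw [← h0]
  rw [h3]
  rfl

end GlueData

/-- the two-level series -/
def two (k : Type*) [Field k] :
    GlueData k (HahnSeries ℤ (HahnSeries ℤ k)) (HahnSeries ℤ (HahnSeries ℤ (R2 k))) where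
  cst := mapRH (io k)
  evT p h1 h2 := mapRH (mapRH (ev p h1 h2))
  evT_cst p h1 h2 x := by
    ext n : 2
    rw [mapRH_coeff, mapRH_coeff, evS_io]
  VT p m x := ∀ n, VS p m (x.coeff n)
  VT_zero_order p x n := VS.zero_order p _
  VT_mono p m m' x h hx n := (hx n).mono h
  VT_zero p m n := by
    intro n'
    simpa using V.zero p m
  VT_add p m x y hx hy n := by
    rw [HahnSeries.coeff_add]
    exact (hx n).add (hy n)
  VT_mul p h1 h2 m m' x y hx hy n := by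
    rw [HahnSeries.coeff_mul]
    exact VS.sum _ _ fun ij _ => (hx _).mul h1 h2 (hy _)
  VT_one p h1 h2 x hx n := by
    apply VS_sub p h1 h2
    have := congrArg (fun y => HahnSeries.coeff y n) hx
    simpa using this
  Λ := {l | ∃ n1 n2 : ℤ, l = fun x => (x.coeff n1).coeff n2}
  Λ_sep x hx := by
    by_contra hno
    push Not at hno
    apply hx
    ext n1 : 2
    ext n2 : 2
    exact hno (fun x => (x.coeff n1).coeff n2) ⟨n1, n2, rfl⟩
  Λ_V l hl p m x hx := by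
    obtain ⟨n1, n2, rfl⟩ := hl
    exact hx n1 n2

/-- **STATEMENT LA, two-level form.** -/
def LAStmt2 (k : Type*) [Field k] (b : ℕ) (S : Finset (ℤ × ℤ)) : Prop :=
  ∃ (W : R2 k) (p : Fin 3 → HahnSeries ℤ (HahnSeries ℤ (R2 k))), W ≠ 0 ∧
    ∀ P : MvPolynomial (Fin 3) (HahnSeries ℤ (HahnSeries ℤ k)), P.IsHomogeneous (3 * b) → P ≠ 0 →
      ∃ (n1 n2 : ℤ) (f : R2 k), f ≠ 0 ∧ (∀ s, s ∉ S → f.coeff s = 0) ∧
        ((eval₂ (mapRH (io k)) p P).coeff n1).coeff n2 = W * f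

/-- **GLUE, two-level form.** -/
theorem glue2 {k : Type*} [Field k] [CharZero k] {ι : Type*} [Fintype ι] {b : ℕ} (hb : 1 ≤ b)
    (S : Finset (ℤ × ℤ)) (m : ι → ℕ) (q : ι → k × k) (hq : ∀ i, (q i).1 ≠ 0 ∧ (q i).2 ≠ 0)
    (hS : L.Indep S q m) (hLA : LAStmt2 k b S) : ¬ Eff (3 * b) 0 m := by
  have : CharZero (HahnSeries ℤ k) :=
    charZero_of_injective_algebraMap (algebraMap k (HahnSeries ℤ k)).injective
  have : CharZero (HahnSeries ℤ (HahnSeries ℤ k)) :=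
    charZero_of_injective_algebraMap
      (algebraMap (HahnSeries ℤ k) (HahnSeries ℤ (HahnSeries ℤ k))).injective
  refine (two k).glue hb S m q hq hS ?_
  obtain ⟨W, p, hW, hp⟩ := hLA
  refine ⟨W, p, hW, fun P hP hP0 => ?_⟩
  obtain ⟨n1, n2, f, hf, hfS, hn⟩ := hp P hP hP0
  exact ⟨fun x => (x.coeff n1).coeff n2, ⟨n1, n2, rfl⟩, f, hf, hfS, hn⟩

/-- **The core statement from the two-level degeneration statement.** -/
theorem core_of_LA2 (hLA : ∀ b m : ℕ, 1 ≤ m → m < b → LAStmt2 ℚ b (QsZ b m)) (r : ℕ) :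
    H597.Core r := by
  intro b m hm hmb h9
  obtain ⟨q, hq⟩ := NG.good_Qs r b m hm hmb h9
  exact glue2 (by omega) (QsZ b m) _ (fun i => (q i 0, q i 1)) (fun i => ⟨hq.1 i 0, hq.1 i 1⟩)
    (indep_of_indepAt hq) (hLA b m hm hmb)

/-- **Nagata's conjecture from the two-level degeneration statement.** -/
theorem nagata_of_LA2 (hLA : ∀ b m : ℕ, 1 ≤ m → m < b → LAStmt2 ℚ b (QsZ b m)) (r : ℕ)
    (hr : 10 ≤ r) : VeryGenerally r fun p =>
    ∀ (d : ℕ) (F : MvPolynomial (Fin 3) ℂ), 1 ≤ d → F.IsHomogeneous d → F ≠ 0 →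
      ∀ m : Fin r → ℕ, (∀ i, MultAtLeast F (p i) (m i)) →
        ∑ i, (m i : ℝ) < d * √(r : ℝ) :=
  H597.nagata_of_core r hr (core_of_LA2 hLA r)

end

end Vale.Agent.P279.H765
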