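import Vale.Agent.P279.H765.Core
import Vale.Agent.P279.H142.Dis

/-! # P279: the two definitions of the support agree -/

namespace Vale.Agent.P279.H765

theorem Qs_eq (b m : ℕ) : H142.Qs b m = NG.Qs b m := by
  ext p
  simp only [H142.Qs, NG.Qs, Finset.mem_filter, Finset.mem_product, Finset.mem_range]

theorem mem_QsZ_of {b m : ℕ} {s : ℤ × ℤ} (h : ∃ t ∈ H142.Qs b m, s = ((t.1 : ℤ), (t.2 : ℤ))) :
    s ∈ QsZ b m := by
  rw [Qs_eq] at h
  exact mem_QsZ.2 h

end Vale.Agent.P279.H765
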