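import Mathlib

/-!
# P279 (Nagata): the common definitions for Laurent supports

`Van S c p m`: the Laurent polynomial `∑_{s ∈ S} c s X^{s.1} Y^{s.2}` vanishes to order `≥ m` at
the torus point `p`, written with the Euler operators (characteristic `0`): all moments of order
`< m` vanish.

`Indep S p m`: no nonzero Laurent polynomial supported on `S` vanishes to order `≥ m i` at all the
points `p i`.
-/

namespace Vale.Agent.P279.H765.L

open Finset

variable {K : Type*} [Field K]

/-- the moment of order `(a, b)` of the Laurent polynomial `∑ c s X^{s.1} Y^{s.2}` at `p` -/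
def mom (S : Finset (ℤ × ℤ)) (c : ℤ × ℤ → K) (p : K × K) (a b : ℕ) : K :=
  ∑ s ∈ S, c s * (s.1 : K) ^ a * (s.2 : K) ^ b * p.1 ^ s.1 * p.2 ^ s.2

/-- vanishing to order at least `m` at `p` -/
def Van (S : Finset (ℤ × ℤ)) (c : ℤ × ℤ → K) (p : K × K) (m : ℕ) : Prop :=
  ∀ a b : ℕ, a + b < m →
    ∑ s ∈ S, c s * (s.1 : K) ^ a * (s.2 : K) ^ b * p.1 ^ s.1 * p.2 ^ s.2 = 0

/-- no nonzero Laurent polynomial supported on `S` vanishes to order `≥ m i` at all `p i` -/
def Indep {ι : Type*} (S : Finset (ℤ × ℤ)) (p : ι → K × K) (m : ι → ℕ) : Prop :=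
  ∀ c : ℤ × ℤ → K, (∀ i, Van S c (p i) (m i)) → ∀ s ∈ S, c s = 0

theorem Van.mono {S : Finset (ℤ × ℤ)} {c : ℤ × ℤ → K} {p : K × K} {m n : ℕ} (h : Van S c p m)
    (hn : n ≤ m) : Van S c p n := fun a b hab => h a b (by omega)

theorem Van.congr {S : Finset (ℤ × ℤ)} {c c' : ℤ × ℤ → K} {p : K × K} {m : ℕ} (h : Van S c p m)
    (hc : ∀ s ∈ S, c s = c' s) : Van S c' p m := by
  intro a b hab
  rw [← h a b hab]
  exact Finset.sum_congr rfl fun s hs => by rw [hc s hs]

theorem Van.smul {S : Finset (ℤ × ℤ)} {c : ℤ × ℤ → K} {p : K × K} {m : ℕ} (h : Van S c p m)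
    (r : K) : Van S (fun s => r * c s) p m := by
  intro a b hab
  have := congrArg (fun t => r * t) (h a b hab)
  simp only [mul_zero, Finset.mul_sum] at this
  rw [← this]
  exact Finset.sum_congr rfl fun s _ => by ring

/-- monotone in the support (the coefficients are zero outside) -/
theorem Van.of_subset {S S' : Finset (ℤ × ℤ)} (hS : S ⊆ S') {c : ℤ × ℤ → K} {p : K × K} {m : ℕ}
    (hc : ∀ s ∈ S', s ∉ S → c s = 0) : Van S c p m ↔ Van S' c p m := by
  unfold Van
  refine forall_congr' fun a => forall_congr' fun b => imp_congr_right fun _ => ?_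
  rw [← Finset.sum_subset hS fun s hs hs' => by rw [hc s hs hs']; simp]

theorem Indep.subset {ι : Type*} {S S' : Finset (ℤ × ℤ)} {p : ι → K × K} {m : ι → ℕ}
    (h : Indep S' p m) (hS : S ⊆ S') : Indep S p m := by
  classical
  intro c hc s hs
  have h1 := h (fun s => if s ∈ S then c s else 0) (fun i => ?_) s (hS hs)
  · simpa [hs] using h1
  · rw [← Van.of_subset hS (fun s _ hs => by simp [hs])]
    exact (hc i).congr fun s hs => by simp [hs]

theorem Indep.mono {ι : Type*} {S : Finset (ℤ × ℤ)} {p : ι → K × K} {m m' : ι → ℕ}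
    (h : Indep S p m) (hm : ∀ i, m i ≤ m' i) : Indep S p m' :=
  fun c hc s hs => h c (fun i => (hc i).mono (hm i)) s hs

theorem Indep.comp {ι κ : Type*} {S : Finset (ℤ × ℤ)} {p : ι → K × K} {m : ι → ℕ}
    (f : κ → ι) (h : Indep S (p ∘ f) (m ∘ f)) : Indep S p m :=
  fun c hc s hs => h c (fun i => hc (f i)) s hs

end Vale.Agent.P279.H765.L
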