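import Mathlib

/-! # P279: coefficientwise maps of Laurent series, ideals and series -/

namespace Vale.Agent.P279.H765

noncomputable section

variable {A B C : Type*} [CommRing A] [CommRing B] [CommRing C]

/-- The coefficientwise ring homomorphism of Laurent series. -/
def mapRH (f : A →+* B) : HahnSeries ℤ A →+* HahnSeries ℤ B where
  toFun x := x.map f
  map_one' := by
    ext n
    simp only [HahnSeries.map_coeff, HahnSeries.coeff_one]
    split_ifs <;> simp
  map_mul' x y := HahnSeries.map_mul (f : A →ₙ+* B)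
  map_zero' := by
    ext n
    simp
  map_add' x y := by
    ext n
    simp

@[simp]
theorem mapRH_coeff (f : A →+* B) (x : HahnSeries ℤ A) (n : ℤ) :
    (mapRH f x).coeff n = f (x.coeff n) := rfl

theorem mapRH_comp_apply (f : A →+* B) (g : B →+* C) (x : HahnSeries ℤ A) :
    mapRH g (mapRH f x) = mapRH (g.comp f) x := by
  ext n
  simp

theorem mapRH_id (x : HahnSeries ℤ A) : mapRH (RingHom.id A) x = x := by
  ext n
  simp

theorem mapRH_single (f : A →+* B) (n : ℤ) (a : A) :
    mapRH f (HahnSeries.single n a) = HahnSeries.single n (f a) := by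
  ext m
  rw [mapRH_coeff, HahnSeries.coeff_single, HahnSeries.coeff_single]
  split_ifs <;> simp

/-- All coefficients lie in the `m`-th power of the ideal. -/
def InJ (I : Ideal A) (m : ℕ) (x : HahnSeries ℤ A) : Prop := ∀ n, x.coeff n ∈ I ^ m

theorem InJ.zero_pow (I : Ideal A) (x : HahnSeries ℤ A) : InJ I 0 x := by
  intro n
  simp

theorem InJ.mono {I : Ideal A} {m m' : ℕ} (h : m' ≤ m) {x : HahnSeries ℤ A} (hx : InJ I m x) :
    InJ I m' x := fun n => Ideal.pow_le_pow_right h (hx n)

theorem InJ.add {I : Ideal A} {m : ℕ} {x y : HahnSeries ℤ A} (hx : InJ I m x) (hy : InJ I m y) :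
    InJ I m (x + y) := by
  intro n
  rw [HahnSeries.coeff_add]
  exact Ideal.add_mem _ (hx n) (hy n)

theorem InJ.sum {I : Ideal A} {m : ℕ} {ι : Type*} (s : Finset ι) (f : ι → HahnSeries ℤ A)
    (h : ∀ i ∈ s, InJ I m (f i)) : InJ I m (∑ i ∈ s, f i) := by
  classical
  induction s using Finset.induction_on with
  | empty =>
    intro n
    simp
  | insert a s ha ih =>
    rw [Finset.sum_insert ha]
    exact (h a (Finset.mem_insert_self _ _)).add (ih fun i hi => h i (Finset.mem_insert_of_mem hi))

theorem InJ.mul {I : Ideal A} {m k : ℕ} {x y : HahnSeries ℤ A} (hx : InJ I m x)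
    (hy : InJ I k y) : InJ I (m + k) (x * y) := by
  intro n
  rw [HahnSeries.coeff_mul]
  refine Ideal.sum_mem _ fun ij _ => ?_
  rw [pow_add]
  exact Ideal.mul_mem_mul (hx _) (hy _)

theorem InJ.mul_right {I : Ideal A} {m : ℕ} {x : HahnSeries ℤ A} (hx : InJ I m x)
    (y : HahnSeries ℤ A) : InJ I m (x * y) := by
  simpa using hx.mul (InJ.zero_pow I y)

theorem InJ.mul_left {I : Ideal A} {m : ℕ} {y : HahnSeries ℤ A} (x : HahnSeries ℤ A)
    (hy : InJ I m y) : InJ I m (x * y) := by
  simpa using (InJ.zero_pow I x).mul hy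

theorem InJ.pow {I : Ideal A} {x : HahnSeries ℤ A} (hx : InJ I 1 x) (k : ℕ) :
    InJ I k (x ^ k) := by
  induction k with
  | zero => exact InJ.zero_pow I _
  | succ k ih =>
    rw [pow_succ]
    exact ih.mul hx

end

end Vale.Agent.P279.H765
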