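import Vale.Agent.P279.H765.LDef
import Vale.Agent.P279.H765.MapRH

/-! # P279: moments of Laurent polynomials and vanishing orders -/

namespace Vale.Agent.P279.H765

open Finset

noncomputable section

/-- Laurent polynomials in two variables over `k`. -/
abbrev R2 (k : Type*) [Field k] := AddMonoidAlgebra k (ℤ × ℤ)

variable {k : Type*} [Field k]

/-- the weight of a monomial in the moment of order `(a, b)` at `p` -/
def wt (p : k × k) (a b : ℕ) (s : ℤ × ℤ) : k :=
  (s.1 : k) ^ a * (s.2 : k) ^ b * (p.1 ^ s.1 * p.2 ^ s.2)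

/-- the moment of order `(a, b)` at `p` -/
def M (p : k × k) (a b : ℕ) (f : R2 k) : k := f.coeff.sum fun s c => c * wt p a b s

theorem M_zero (p : k × k) (a b : ℕ) : M p a b 0 = 0 := by
  simp [M]

theorem M_add (p : k × k) (a b : ℕ) (f g : R2 k) : M p a b (f + g) = M p a b f + M p a b g := by
  simp only [M, AddMonoidAlgebra.coeff_add]
  rw [Finsupp.sum_add_index']
  · intro s; simp
  · intro s c d; ring

theorem M_single (p : k × k) (a b : ℕ) (s : ℤ × ℤ) (c : k) :
    M p a b (AddMonoidAlgebra.single s c) = c * wt p a b s := by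
  simp only [M, AddMonoidAlgebra.coeff_single]
  rw [Finsupp.sum_single_index]
  simp

theorem wt_add {p : k × k} (h1 : p.1 ≠ 0) (h2 : p.2 ≠ 0) (a b : ℕ) (s s' : ℤ × ℤ) :
    wt p a b (s + s') = ∑ i ∈ range (a + 1), ∑ j ∈ range (b + 1),
      ((a.choose i : k) * (b.choose j : k)) * (wt p i j s * wt p (a - i) (b - j) s') := by
  simp only [wt, Prod.fst_add, Prod.snd_add]
  push_cast
  rw [add_pow, add_pow, zpow_add₀ h1, zpow_add₀ h2, Finset.sum_mul_sum, Finset.sum_mul]
  refine Finset.sum_congr rfl fun i _ => ?_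
  rw [Finset.sum_mul]
  refine Finset.sum_congr rfl fun j _ => by ring

theorem M_mul {p : k × k} (h1 : p.1 ≠ 0) (h2 : p.2 ≠ 0) (a b : ℕ) (f g : R2 k) :
    M p a b (f * g) = ∑ i ∈ range (a + 1), ∑ j ∈ range (b + 1),
      ((a.choose i : k) * (b.choose j : k)) * (M p i j f * M p (a - i) (b - j) g) := by
  induction f using AddMonoidAlgebra.induction_linear with
  | zero => simp [M_zero]
  | add f f' hf hf' =>
    rw [add_mul, M_add, hf, hf', ← sum_add_distrib]
    refine sum_congr rfl fun i _ => ?_
    rw [← sum_add_distrib]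
    refine sum_congr rfl fun j _ => ?_
    rw [M_add]
    ring
  | single s c =>
    induction g using AddMonoidAlgebra.induction_linear with
    | zero => simp [M_zero]
    | add g g' hg hg' =>
      rw [mul_add, M_add, hg, hg', ← sum_add_distrib]
      refine sum_congr rfl fun i _ => ?_
      rw [← sum_add_distrib]
      refine sum_congr rfl fun j _ => ?_
      rw [M_add]
      ring
    | single s' c' =>
      rw [AddMonoidAlgebra.single_mul_single, M_single, wt_add h1 h2, mul_sum]
      refine sum_congr rfl fun i _ => ?_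
      rw [mul_sum]
      refine sum_congr rfl fun j _ => ?_
      rw [M_single, M_single]
      ring

/-- all moments of order `< m` vanish -/
def V (p : k × k) (m : ℕ) (f : R2 k) : Prop := ∀ a b, a + b < m → M p a b f = 0

theorem V.zero_order (p : k × k) (f : R2 k) : V p 0 f := fun a b h => absurd h (by omega)

theorem V.zero (p : k × k) (m : ℕ) : V p m (0 : R2 k) := fun a b _ => M_zero p a b

theorem V.add {p : k × k} {m : ℕ} {f g : R2 k} (hf : V p m f) (hg : V p m g) :
    V p m (f + g) := fun a b h => by rw [M_add, hf a b h, hg a b h, add_zero]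

theorem V.mono {p : k × k} {m m' : ℕ} (h : m' ≤ m) {f : R2 k} (hf : V p m f) : V p m' f :=
  fun a b hab => hf a b (by omega)

theorem V.sum {p : k × k} {m : ℕ} {ι : Type*} (s : Finset ι) (f : ι → R2 k)
    (h : ∀ i ∈ s, V p m (f i)) : V p m (∑ i ∈ s, f i) := by
  classical
  induction s using Finset.induction_on with
  | empty => simpa using V.zero p m
  | insert a s ha ih =>
    rw [Finset.sum_insert ha]
    exact (h a (Finset.mem_insert_self _ _)).add (ih fun i hi => h i (Finset.mem_insert_of_mem hi))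

theorem V.mul {p : k × k} (h1 : p.1 ≠ 0) (h2 : p.2 ≠ 0) {m m' : ℕ} {f g : R2 k}
    (hf : V p m f) (hg : V p m' g) : V p (m + m') (f * g) := by
  intro a b hab
  rw [M_mul h1 h2]
  refine sum_eq_zero fun i hi => sum_eq_zero fun j hj => ?_
  rw [mem_range] at hi hj
  rcases lt_or_ge (i + j) m with h | h
  · rw [hf i j h, zero_mul, mul_zero]
  · rw [hg (a - i) (b - j) (by omega), mul_zero, mul_zero]

/-- division by a Laurent polynomial not vanishing at the point -/
theorem V.of_mul {p : k × k} (h1 : p.1 ≠ 0) (h2 : p.2 ≠ 0) {m : ℕ} {w f : R2 k}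
    (hw : M p 0 0 w ≠ 0) (h : V p m (w * f)) : V p m f := by
  have key : ∀ n : ℕ, ∀ a b, a + b = n → a + b < m → M p a b f = 0 := by
    intro n
    induction n using Nat.strong_induction_on with
    | _ n ih =>
      intro a b hab hm
      have h3 := h a b hm
      rw [M_mul h1 h2] at h3
      rw [sum_eq_single 0, sum_eq_single 0] at h3
      · simp only [Nat.choose_zero_right, Nat.cast_one, one_mul, Nat.sub_zero, mul_eq_zero] at h3
        rcases h3 with h3 | h3
        · exact absurd h3 hw
        · exact h3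
      · intro j hj hj0
        rw [mem_range] at hj
        rw [ih (a - 0 + (b - j)) (by omega) (a - 0) (b - j) rfl (by omega), mul_zero, mul_zero]
      · intro h4
        exact absurd (mem_range.2 (by omega)) h4
      · intro i hi hi0
        rw [mem_range] at hi
        refine sum_eq_zero fun j hj => ?_
        rw [mem_range] at hj
        rw [ih (a - i + (b - j)) (by omega) (a - i) (b - j) rfl (by omega), mul_zero, mul_zero]
      · intro h4
        exact absurd (mem_range.2 (by omega)) h4
  exact fun a b hab => key _ a b rfl hab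

/-- the link with the common definition -/
theorem van_of_V {p : k × k} {m : ℕ} {S : Finset (ℤ × ℤ)} {f : R2 k}
    (hS : ∀ s, s ∉ S → f.coeff s = 0) (h : V p m f) : L.Van S (fun s => f.coeff s) p m := by
  intro a b hab
  rw [← h a b hab, M, Finsupp.sum]
  have hsub : f.coeff.support ⊆ S := by
    intro s hs
    by_contra h'
    exact (Finsupp.mem_support_iff.1 hs) (hS s h')
  rw [Finset.sum_subset hsub]
  · refine sum_congr rfl fun s _ => ?_
    rw [wt]
    ring
  · intro s _ hs
    rw [Finsupp.notMem_support_iff.1 hs]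
    simp

/-- evaluation at a torus point as a ring homomorphism -/
def ev (p : k × k) (h1 : p.1 ≠ 0) (h2 : p.2 ≠ 0) : R2 k →+* k where
  toFun f := M p 0 0 f
  map_one' := by
    rw [AddMonoidAlgebra.one_def, M_single]
    simp [wt]
  map_mul' f g := by
    rw [M_mul h1 h2]
    simp
  map_zero' := M_zero p 0 0
  map_add' f g := M_add p 0 0 f g

theorem ev_apply (p : k × k) (h1 : p.1 ≠ 0) (h2 : p.2 ≠ 0) (f : R2 k) :
    ev p h1 h2 f = M p 0 0 f := rfl

/-! ### Series -/

/-- all coefficients vanish to order `m` -/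
def VS (p : k × k) (m : ℕ) (x : HahnSeries ℤ (R2 k)) : Prop := ∀ n, V p m (x.coeff n)

theorem VS.zero_order (p : k × k) (x : HahnSeries ℤ (R2 k)) : VS p 0 x :=
  fun _ => V.zero_order p _

theorem VS.mono {p : k × k} {m m' : ℕ} (h : m' ≤ m) {x : HahnSeries ℤ (R2 k)} (hx : VS p m x) :
    VS p m' x := fun n => (hx n).mono h

theorem VS.add {p : k × k} {m : ℕ} {x y : HahnSeries ℤ (R2 k)} (hx : VS p m x)
    (hy : VS p m y) : VS p m (x + y) := by
  intro n
  rw [HahnSeries.coeff_add]
  exact (hx n).add (hy n)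

theorem VS.sum {p : k × k} {m : ℕ} {ι : Type*} (s : Finset ι) (f : ι → HahnSeries ℤ (R2 k))
    (h : ∀ i ∈ s, VS p m (f i)) : VS p m (∑ i ∈ s, f i) := by
  classical
  induction s using Finset.induction_on with
  | empty =>
    intro n
    simpa using V.zero p m
  | insert a s ha ih =>
    rw [Finset.sum_insert ha]
    exact (h a (Finset.mem_insert_self _ _)).add (ih fun i hi => h i (Finset.mem_insert_of_mem hi))

theorem VS.mul {p : k × k} (h1 : p.1 ≠ 0) (h2 : p.2 ≠ 0) {m m' : ℕ} {x y : HahnSeries ℤ (R2 k)}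
    (hx : VS p m x) (hy : VS p m' y) : VS p (m + m') (x * y) := by
  intro n
  rw [HahnSeries.coeff_mul]
  exact V.sum _ _ fun ij _ => (hx _).mul h1 h2 (hy _)

theorem VS.mul_right {p : k × k} (h1 : p.1 ≠ 0) (h2 : p.2 ≠ 0) {m : ℕ}
    {x : HahnSeries ℤ (R2 k)} (hx : VS p m x) (y : HahnSeries ℤ (R2 k)) : VS p m (x * y) := by
  simpa using hx.mul h1 h2 (VS.zero_order p y)

theorem VS.mul_left {p : k × k} (h1 : p.1 ≠ 0) (h2 : p.2 ≠ 0) {m : ℕ}
    (x : HahnSeries ℤ (R2 k)) {y : HahnSeries ℤ (R2 k)} (hy : VS p m y) : VS p m (x * y) := by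
  simpa using (VS.zero_order p x).mul h1 h2 hy

theorem VS.pow {p : k × k} (h1 : p.1 ≠ 0) (h2 : p.2 ≠ 0) {x : HahnSeries ℤ (R2 k)}
    (hx : VS p 1 x) (n : ℕ) : VS p n (x ^ n) := by
  induction n with
  | zero => exact VS.zero_order p _
  | succ n ih =>
    rw [pow_succ]
    exact ih.mul h1 h2 hx

/-- the constants of the series ring -/
def io (k : Type*) [Field k] : HahnSeries ℤ k →+* HahnSeries ℤ (R2 k) :=
  mapRH (algebraMap k (R2 k))

theorem ev_algebraMap (p : k × k) (h1 : p.1 ≠ 0) (h2 : p.2 ≠ 0) (c : k) :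
    ev p h1 h2 (algebraMap k (R2 k) c) = c := by
  rw [ev_apply, AddMonoidAlgebra.coe_algebraMap]
  simp [M_single, wt]

theorem evS_io (p : k × k) (h1 : p.1 ≠ 0) (h2 : p.2 ≠ 0) (x : HahnSeries ℤ k) :
    mapRH (ev p h1 h2) (io k x) = x := by
  ext n
  rw [mapRH_coeff, io, mapRH_coeff, ev_algebraMap]

/-- a series minus its value at the point vanishes to order one -/
theorem VS_sub (p : k × k) (h1 : p.1 ≠ 0) (h2 : p.2 ≠ 0) {x : HahnSeries ℤ (R2 k)}
    (h : mapRH (ev p h1 h2) x = 0) : VS p 1 x := by
  intro n a b hab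
  have ha : a = 0 := by omega
  have hb : b = 0 := by omega
  subst ha hb
  have := congrArg (fun y => HahnSeries.coeff y n) h
  simpa [ev_apply] using this

end

end Vale.Agent.P279.H765
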