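import Vale.Agent.P279.H765.Core

/-! # P279: the degeneration statement from its affine power series form -/

namespace Vale.Agent.P279.H765

open MvPolynomial

noncomputable section

/-- The affine power series form of the degeneration statement. -/
def LAPow (k : Type*) [Field k] (b : ℕ) (S : Finset (ℤ × ℤ)) : Prop :=
  ∃ (W : R2 k) (x y : PowerSeries (R2 k)), W ≠ 0 ∧
    ∀ P : MvPolynomial (Fin 2) (PowerSeries k), P ≠ 0 → InV (3 * b) 0 P →
      ∃ (n : ℕ) (f : R2 k), f ≠ 0 ∧ (∀ s, s ∉ S → f.coeff s = 0) ∧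
        PowerSeries.coeff n (eval₂ (PowerSeries.map (algebraMap k (R2 k))) ![x, y] P) = W * f

/-- power series as Laurent series -/
def ps (A : Type*) [CommRing A] : PowerSeries A →+* HahnSeries ℤ A := HahnSeries.ofPowerSeries ℤ A

theorem ps_coeff_nat {A : Type*} [CommRing A] (x : PowerSeries A) (n : ℕ) :
    (ps A x).coeff (n : ℤ) = PowerSeries.coeff n x :=
  HahnSeries.ofPowerSeries_apply_coeff x n

theorem ps_coeff_neg {A : Type*} [CommRing A] (x : PowerSeries A) {n : ℤ} (hn : n < 0) :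
    (ps A x).coeff n = 0 := by
  rw [ps, HahnSeries.ofPowerSeries_apply]
  apply HahnSeries.embDomain_of_notMem_range
  rintro ⟨m, hm⟩
  rw [Nat.castOrderEmbedding_apply] at hm
  omega

theorem mapRH_ps {A B : Type*} [CommRing A] [CommRing B] (f : A →+* B) (x : PowerSeries A) :
    mapRH f (ps A x) = ps B (PowerSeries.map f x) := by
  ext n
  rcases lt_or_ge n 0 with hn | hn
  · rw [mapRH_coeff, ps_coeff_neg x hn, ps_coeff_neg _ hn, map_zero]
  · obtain ⟨m, rfl⟩ := Int.eq_ofNat_of_zero_le hn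
    rw [mapRH_coeff, ps_coeff_nat, ps_coeff_nat, PowerSeries.coeff_map]

/-- the power series `t ^ N · a` (its part of nonnegative exponents) -/
def cps {A : Type*} [CommRing A] (N : ℕ) (a : HahnSeries ℤ A) : PowerSeries A :=
  PowerSeries.mk fun n => a.coeff ((n : ℤ) - N)

theorem ps_cps {A : Type*} [CommRing A] {N : ℕ} {a : HahnSeries ℤ A}
    (h : ∀ n : ℤ, n < -(N : ℤ) → a.coeff n = 0) :
    ps A (cps N a) = HahnSeries.single (N : ℤ) 1 * a := by
  ext n
  rw [HahnSeries.coeff_single_mul, one_mul]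
  rcases lt_or_ge n 0 with hn | hn
  · rw [ps_coeff_neg _ hn, h _ (by omega)]
  · obtain ⟨m, rfl⟩ := Int.eq_ofNat_of_zero_le hn
    rw [ps_coeff_nat, cps, PowerSeries.coeff_mk]

theorem exists_low {A : Type*} [CommRing A] {ι : Type*} (s : Finset ι)
    (a : ι → HahnSeries ℤ A) : ∃ N : ℕ, ∀ i ∈ s, ∀ n : ℤ, n < -(N : ℤ) → (a i).coeff n = 0 := by
  classical
  induction s using Finset.induction_on with
  | empty => exact ⟨0, by simp⟩
  | insert i s _ ih =>
    obtain ⟨N, hN⟩ := ih
    refine ⟨max N ((a i).order).natAbs, fun j hj n hn => ?_⟩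
    rcases Finset.mem_insert.1 hj with rfl | hj
    · exact HahnSeries.coeff_eq_zero_of_lt_order (by omega)
    · exact hN j hj n (by omega)

/-- **From the power series form.** -/
theorem LAPow.laStmt {k : Type*} [Field k] {b : ℕ} {S : Finset (ℤ × ℤ)} (h : LAPow k b S) :
    LAStmt k b S := by
  classical
  obtain ⟨W, x, y, hW, hp⟩ := h
  refine ⟨W, ![ps _ x, ps _ y, 1], hW, fun P hhom hP => ?_⟩
  obtain ⟨N, hN⟩ := exists_low P.support (fun δ => coeff δ P)
  set g : (Fin 3 →₀ ℕ) → (Fin 2 →₀ ℕ) := fun δ => Finsupp.single 0 (δ 0) + Finsupp.single 1 (δ 1)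
    with hg
  have g0 : ∀ δ, g δ 0 = δ 0 := fun δ => by simp [hg]
  have g1 : ∀ δ, g δ 1 = δ 1 := fun δ => by simp [hg]
  have hdeg : ∀ δ ∈ P.support, δ 0 + δ 1 + δ 2 = 3 * b := by
    intro δ hδ
    have := hhom (mem_support_iff.1 hδ)
    rw [Finsupp.weight_apply, Finsupp.sum_fintype _ _ (fun i => by simp),
      Fin.sum_univ_three] at this
    simpa using this
  have hinj : ∀ δ ∈ P.support, ∀ δ' ∈ P.support, g δ = g δ' → δ = δ' := by
    intro δ hδ δ' hδ' he
    have e0 : δ 0 = δ' 0 := by rw [← g0, ← g0, he]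
    have e1 : δ 1 = δ' 1 := by rw [← g1, ← g1, he]
    have e2 := hdeg δ hδ
    have e3 := hdeg δ' hδ'
    ext i
    fin_cases i
    · exact e0
    · exact e1
    · show δ 2 = δ' 2
      omega
  set Q : MvPolynomial (Fin 2) (PowerSeries k) :=
    ∑ δ ∈ P.support, monomial (g δ) (cps N (coeff δ P)) with hQ
  have hQc : ∀ δ ∈ P.support, coeff (g δ) Q = cps N (coeff δ P) := by
    intro δ hδ
    rw [hQ, coeff_sum, Finset.sum_eq_single δ]
    · rw [coeff_monomial, if_pos rfl]
    · intro δ' hδ' hne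
      rw [coeff_monomial, if_neg]
      exact fun he => hne (hinj δ' hδ' δ hδ he)
    · exact fun h => absurd hδ h
  have hQ0 : Q ≠ 0 := by
    intro h0
    obtain ⟨δ, hδ⟩ := support_nonempty.2 hP
    have h1 := hQc δ hδ
    rw [h0, coeff_zero] at h1
    have h2 := ps_cps (hN δ hδ)
    rw [← h1, map_zero] at h2
    apply mem_support_iff.1 hδ
    ext n
    have h3 := congrArg (fun z => HahnSeries.coeff z (n + N)) h2
    rw [HahnSeries.coeff_single_mul, one_mul, HahnSeries.coeff_zero] at h3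
    rw [HahnSeries.coeff_zero, h3]
    congr 1
    ring
  have hQV : InV (3 * b) 0 Q := by
    refine InV.sum fun δ hδ => ?_
    intro ε hε
    have h1 := support_monomial_subset hε
    rw [Finset.mem_singleton] at h1
    subst h1
    have h2 := hdeg δ hδ
    rw [g0, g1]
    omega
  obtain ⟨n, f, hf, hfS, hn⟩ := hp Q hQ0 hQV
  refine ⟨(n : ℤ) - N, f, hf, hfS, ?_⟩
  rw [← hn, ← ps_coeff_nat]
  have key : ps (R2 k) (eval₂ (PowerSeries.map (algebraMap k (R2 k))) ![x, y] Q) =
      HahnSeries.single (N : ℤ) 1 * eval₂ (io k) ![ps _ x, ps _ y, 1] P := by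
    rw [eval₂_eq' (g := io k), hQ]
    rw [← coe_eval₂Hom, map_sum, map_sum, Finset.mul_sum]
    refine Finset.sum_congr rfl fun δ hδ => ?_
    rw [coe_eval₂Hom, eval₂_monomial, map_mul, Finsupp.prod_fintype _ _ (fun i => pow_zero _)]
    rw [Fin.prod_univ_two, Fin.prod_univ_three, g0, g1, ← mapRH_ps, ps_cps (hN δ hδ), map_mul,
      mapRH_single, map_one]
    simp only [Matrix.cons_val_zero, Matrix.cons_val_one, Matrix.cons_val_two, Matrix.head_cons,
      Matrix.tail_cons, one_pow, mul_one, map_mul, map_pow]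
    rw [io, mul_assoc]
  rw [key, HahnSeries.coeff_single_mul, one_mul]

/-- **Nagata's conjecture from the power series form.** -/
theorem nagata_of_pow (hLA : ∀ b m : ℕ, 1 ≤ m → m < b → LAPow ℚ b (QsZ b m)) (r : ℕ)
    (hr : 10 ≤ r) : VeryGenerally r fun p =>
    ∀ (d : ℕ) (F : MvPolynomial (Fin 3) ℂ), 1 ≤ d → F.IsHomogeneous d → F ≠ 0 →
      ∀ m : Fin r → ℕ, (∀ i, MultAtLeast F (p i) (m i)) →
        ∑ i, (m i : ℝ) < d * √(r : ℝ) :=
  nagata_of_LA (fun b m hm hmb => (hLA b m hm hmb).laStmt) r hr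

end

end Vale.Agent.P279.H765
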